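import Vale.Agent.P088.H442.C.Defs

/-!
# P088, Theorem C, row (C_EN): `f` is controlled by `σ⁻¹ div (σ ∇f)` (maximum principle)
-/

open MeasureTheory Set Filter Topology
open scoped ContDiff Matrix

noncomputable section

namespace Vale.Agent.P088.H394

open Vale.Agent.P088.LR Vale.Agent.P088.LR.CF Vale.Agent.P088.LR.CC

variable {n : ℕ}

/-! ## One variable -/

/-- The second derivative is nonpositive at a local maximum. -/
theorem deriv2_nonpos {h : ℝ → ℝ} {t : ℝ} (hc : ContinuousAt h t) (hm : IsLocalMax h t) :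
    deriv (deriv h) t ≤ 0 := by
  by_contra hn
  push Not at hn
  have h1 : deriv h t = 0 := hm.deriv_eq_zero
  have hmin : IsLocalMin h t := isLocalMin_of_deriv_deriv_pos hn h1 hc
  have he : h =ᶠ[𝓝 t] fun _ => h t := by
    filter_upwards [hm, hmin] with s hs1 hs2
    exact le_antisymm hs1 hs2
  have h2 : deriv h =ᶠ[𝓝 t] fun _ => 0 := by
    have := he.deriv
    refine this.trans ?_
    exact Eventually.of_forall fun s => by simp
  have h3 : deriv (deriv h) t = 0 := by
    rw [h2.deriv_eq]; simp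
  linarith

/-! ## Partial derivatives -/

theorem pd_line {F : V n → ℝ} (hF : Differentiable ℝ F) (i : Fin n) (x : V n) (t : ℝ) :
    HasDerivAt (fun s : ℝ => F (x + s • (Pi.single i 1 : V n)))
      (pd i F (x + t • (Pi.single i 1 : V n))) t := by
  have h1 : HasDerivAt (fun s : ℝ => x + s • (Pi.single i 1 : V n)) (Pi.single i 1 : V n) t := by
    have := ((hasDerivAt_id t).smul_const (Pi.single i 1 : V n)).const_add x
    simpa using this
  exact (hF (x + t • (Pi.single i 1 : V n))).hasFDerivAt.comp_hasDerivAt t h1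

theorem cd_pd {F : V n → ℝ} (hF : ContDiff ℝ ∞ F) (i : Fin n) : ContDiff ℝ ∞ (pd i F) := by
  unfold pd
  exact (hF.fderiv_right (m := ∞) (by simp)).clm_apply contDiff_const

theorem pd_cx {F : V n → ℝ} (hF : Differentiable ℝ F) (i : Fin n) (x : V n) :
    pd i (cx F) x = ((pd i F x : ℝ) : ℂ) := by
  have h1 : HasFDerivAt (cx F) (Complex.ofRealCLM.comp (fderiv ℝ F x)) x :=
    Complex.ofRealCLM.hasFDerivAt.comp x (hF x).hasFDerivAt
  unfold pd
  rw [h1.fderiv]
  simp

theorem pd_mul' {F G : V n → ℝ} (hF : Differentiable ℝ F) (hG : Differentiable ℝ G) (i : Fin n)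
    (x : V n) : pd i (fun y => F y * G y) x = pd i F x * G x + F x * pd i G x := by
  have h1 : HasFDerivAt (fun y => F y * G y) (F x • fderiv ℝ G x + G x • fderiv ℝ F x) x :=
    (hF x).hasFDerivAt.mul (hG x).hasFDerivAt
  unfold pd
  rw [h1.fderiv]
  simp
  ring

/-- At a local maximum the first derivatives vanish. -/
theorem pd_zero {F : V n → ℝ} {x : V n} (hm : IsLocalMax F x) (i : Fin n) : pd i F x = 0 := by
  unfold pd
  rw [hm.fderiv_eq_zero]
  simp

/-- At a local maximum the pure second derivatives are nonpositive. -/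
theorem pd2_nonpos {F : V n → ℝ} (hF : ContDiff ℝ ∞ F) {x : V n} (hm : IsLocalMax F x)
    (i : Fin n) : pd i (pd i F) x ≤ 0 := by
  set h : ℝ → ℝ := fun s => F (x + s • (Pi.single i 1 : V n)) with hh
  have hd : Differentiable ℝ F := hF.differentiable (by simp)
  have hd2 : Differentiable ℝ (pd i F) := (cd_pd hF i).differentiable (by simp)
  have h1 : deriv h = fun s => pd i F (x + s • (Pi.single i 1 : V n)) := by
    funext s
    exact (pd_line hd i x s).deriv
  have h2 : deriv (deriv h) 0 = pd i (pd i F) x := by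
    rw [h1]
    have := (pd_line hd2 i x 0).deriv
    simpa using this
  have hc : ContinuousAt h 0 := (pd_line hd i x 0).continuousAt
  have ht : Tendsto (fun s : ℝ => x + s • (Pi.single i 1 : V n)) (𝓝 0) (𝓝 x) := by
    have : ContinuousAt (fun s : ℝ => x + s • (Pi.single i 1 : V n)) 0 := by fun_prop
    simpa [ContinuousAt] using this
  have hm' : IsLocalMax h 0 := by
    have h3 : ∀ᶠ s in 𝓝 (0 : ℝ), F (x + s • (Pi.single i 1 : V n)) ≤ F x := ht.eventually hm
    have h4 : F x = h 0 := by simp [hh]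
    unfold IsLocalMax IsMaxFilter
    filter_upwards [h3] with s hs
    rw [← h4]
    exact hs
  rw [← h2]
  exact deriv2_nonpos hc hm'

/-! ## The barrier -/

/-- `e^{l x_i}`. -/
def ba (l : ℝ) (i₀ : Fin n) (x : V n) : ℝ := Real.exp (l * x i₀)

theorem ba_fd (l : ℝ) (i₀ : Fin n) (x : V n) :
    HasFDerivAt (ba l i₀) (Real.exp (l * x i₀) • (l • (ContinuousLinearMap.proj i₀ :
      V n →L[ℝ] ℝ))) x := by
  have h1 : HasFDerivAt (fun y : V n => l * y i₀) (l • (ContinuousLinearMap.proj i₀ :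
      V n →L[ℝ] ℝ)) x := ((ContinuousLinearMap.proj i₀ : V n →L[ℝ] ℝ).hasFDerivAt).const_mul l
  exact h1.exp

theorem ba_cd (l : ℝ) (i₀ : Fin n) : ContDiff ℝ ∞ (ba (n := n) l i₀) := by
  unfold ba
  fun_prop

theorem ba_pd (l : ℝ) (i₀ i : Fin n) (x : V n) :
    pd i (ba l i₀) x = if i = i₀ then l * ba l i₀ x else 0 := by
  unfold pd
  rw [(ba_fd l i₀ x).fderiv]
  by_cases h : i = i₀
  · subst h
    simp [ba]
    ring
  · simp [h]

theorem ba_pd2 (l : ℝ) (i₀ i : Fin n) (x : V n) :
    pd i (pd i (ba l i₀)) x = if i = i₀ then l ^ 2 * ba l i₀ x else 0 := by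
  have h0 : pd i (ba (n := n) l i₀) = fun y => if i = i₀ then l * ba l i₀ y else 0 := by
    funext y; exact ba_pd l i₀ i y
  rw [h0]
  by_cases h : i = i₀
  · subst h
    simp only [if_true]
    have h1 : HasFDerivAt (fun y : V n => l * ba l i y) (l • (Real.exp (l * x i) •
        (l • (ContinuousLinearMap.proj i : V n →L[ℝ] ℝ)))) x := (ba_fd l i x).const_mul l
    unfold pd
    rw [h1.fderiv]
    simp [ba]
    ring
  · simp only [if_neg h]
    unfold pd
    simp

/-! ## The maximum principle -/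

/-- `div (σ ∇f)`. -/
def SS (σ f : V n → ℝ) (x : V n) : ℝ :=
  ∑ i, (pd i σ x * pd i f x + σ x * pd i (pd i f) x)

theorem pd_add' {F G : V n → ℝ} (hF : Differentiable ℝ F) (hG : Differentiable ℝ G) (c : ℝ)
    (i : Fin n) (x : V n) : pd i (fun y => F y + c * G y) x = pd i F x + c * pd i G x := by
  have h1 : HasFDerivAt (fun y => F y + c * G y) (fderiv ℝ F x + c • fderiv ℝ G x) x :=
    (hF x).hasFDerivAt.add ((hG x).hasFDerivAt.const_mul c)
  unfold pd
  rw [h1.fderiv]
  simp

theorem SS_ba (l : ℝ) (i₀ : Fin n) (σ : V n → ℝ) (x : V n) :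
    SS σ (ba l i₀) x = (l * pd i₀ σ x + l ^ 2 * σ x) * ba l i₀ x := by
  unfold SS
  rw [Finset.sum_eq_single i₀]
  · rw [ba_pd, ba_pd2]; simp; ring
  · intro i _ hi
    rw [ba_pd, ba_pd2]; simp [hi]
  · intro h; exact absurd (Finset.mem_univ _) h

/-- The closed unit cube. -/
def QQ (n : ℕ) : Set (V n) := Set.pi univ fun _ => Icc (0 : ℝ) 1

theorem core_nhds {x : V n} (hx : x ∈ core n) : QQ n ∈ 𝓝 x := by
  unfold QQ
  refine set_pi_mem_nhds finite_univ fun j _ => ?_
  have := hx j
  exact Icc_mem_nhds (by linarith) (by linarith)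

theorem one_side (i₀ : Fin n) (σ : V n → ℝ) (hpos : ∀ x, 0 < σ x) (D : ℝ) (hD0 : 0 ≤ D)
    (hD : ∀ x ∈ core n, |pd i₀ σ x| ≤ D * σ x) (f : V n → ℝ) (hf : ContDiff ℝ ∞ f)
    (h0 : ∀ x ∉ core n, f x = 0) (b : ℝ) (hb : 0 ≤ b)
    (hS : ∀ x ∈ core n, -(b * σ x) ≤ SS σ f x) (x : V n) : f x ≤ Real.exp (D + 1) * b := by
  by_contra hn
  push Not at hn
  have he : 0 < Real.exp (D + 1) := Real.exp_pos _
  have hxc : x ∈ core n := by
    by_contra h
    rw [h0 x h] at hn
    exact absurd hn (not_lt.2 (mul_nonneg he.le hb))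
  obtain ⟨β, hβ1, hβ2⟩ : ∃ β, b < β ∧ Real.exp (D + 1) * β < f x := by
    refine ⟨(b + f x / Real.exp (D + 1)) / 2, ?_, ?_⟩
    · have : b < f x / Real.exp (D + 1) := by rw [lt_div_iff₀ he]; linarith
      linarith
    · have h1 : Real.exp (D + 1) * (f x / Real.exp (D + 1)) = f x := by
        field_simp
      nlinarith
  have hβ0 : 0 < β := lt_of_le_of_lt hb hβ1
  have hQ : IsCompact (QQ n) := isCompact_univ_pi fun _ => isCompact_Icc
  have hxQ : x ∈ QQ n := mem_of_mem_nhds (core_nhds hxc)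
  set l : ℝ := D + 1 with hl
  set g : V n → ℝ := fun y => f y + β * ba l i₀ y with hg
  have hgc : ContDiff ℝ ∞ g := hf.add (contDiff_const.mul (ba_cd l i₀))
  obtain ⟨y, hyQ, hy⟩ := hQ.exists_isMaxOn ⟨x, hxQ⟩ hgc.continuous.continuousOn
  have hbx : 0 < ba l i₀ x := Real.exp_pos _
  have hxy : g x ≤ g y := hy hxQ
  by_cases hyc : y ∈ core n
  · -- interior maximum
    have hm : IsLocalMax g y := by
      filter_upwards [core_nhds hyc] with z hz
      exact hy hz
    have hfd : Differentiable ℝ f := hf.differentiable (by simp)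
    have hbd : Differentiable ℝ (ba (n := n) l i₀) := (ba_cd l i₀).differentiable (by simp)
    have hfd2 : ∀ i, Differentiable ℝ (pd i f) := fun i =>
      (cd_pd hf i).differentiable (by simp)
    have hbd2 : ∀ i, Differentiable ℝ (pd i (ba (n := n) l i₀)) := fun i =>
      (cd_pd (ba_cd l i₀) i).differentiable (by simp)
    have e1 : ∀ i, pd i f y + β * pd i (ba l i₀) y = 0 := fun i => by
      rw [← pd_add' hfd hbd β i y]; exact pd_zero hm i
    have e2 : ∀ i, pd i (pd i f) y + β * pd i (pd i (ba l i₀)) y ≤ 0 := fun i => by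
      have h1 : pd i g = fun z => pd i f z + β * pd i (ba l i₀) z := by
        funext z; exact pd_add' hfd hbd β i z
      have h2 := pd2_nonpos hgc hm i
      rw [h1, pd_add' (hfd2 i) (hbd2 i) β i y] at h2
      exact h2
    have e3 : SS σ f y + β * SS σ (ba l i₀) y ≤ 0 := by
      unfold SS
      rw [Finset.mul_sum, ← Finset.sum_add_distrib]
      refine Finset.sum_nonpos fun i _ => ?_
      have h1 := e1 i
      have h2 := e2 i
      have h3 : pd i σ y * pd i f y + σ y * pd i (pd i f) y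
          + β * (pd i σ y * pd i (ba l i₀) y + σ y * pd i (pd i (ba l i₀)) y)
          = pd i σ y * (pd i f y + β * pd i (ba l i₀) y)
            + σ y * (pd i (pd i f) y + β * pd i (pd i (ba l i₀)) y) := by ring
      rw [h3, h1, mul_zero, zero_add]
      exact mul_nonpos_of_nonneg_of_nonpos (hpos y).le h2
    rw [SS_ba] at e3
    have h4 := hS y hyc
    have h5 := hD y hyc
    have h6 : -(D * σ y) ≤ pd i₀ σ y := (abs_le.1 h5).1
    have h7 : 1 ≤ ba l i₀ y := by
      unfold ba
      have := (hyc i₀).1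
      have h0l : 0 ≤ l := by rw [hl]; linarith
      exact Real.one_le_exp (mul_nonneg h0l (by linarith))
    have h8 : σ y ≤ l * pd i₀ σ y + l ^ 2 * σ y := by
      have hl1 : 1 ≤ l := by rw [hl]; linarith
      have : 0 < σ y := hpos y
      have h9 : l * -(D * σ y) ≤ l * pd i₀ σ y := mul_le_mul_of_nonneg_left h6 (by linarith)
      have h10 : l * -(D * σ y) + l ^ 2 * σ y = l * σ y := by rw [hl]; ring
      nlinarith
    have h11 : σ y ≤ (l * pd i₀ σ y + l ^ 2 * σ y) * ba l i₀ y := by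
      have := hpos y
      nlinarith
    have h12 := hpos y
    nlinarith
  · have h1 : g y = β * ba l i₀ y := by simp [hg, h0 y hyc]
    have h2 : ba l i₀ y ≤ Real.exp (D + 1) := by
      unfold ba
      apply Real.exp_le_exp.2
      have := (hyQ i₀ (mem_univ _)).2
      have h3 : 0 ≤ l := by rw [hl]; linarith
      calc l * y i₀ ≤ l * 1 := mul_le_mul_of_nonneg_left this h3
        _ = D + 1 := by rw [hl]; ring
    have h3 : g x = f x + β * ba l i₀ x := rfl
    have h4 : 0 < β * ba l i₀ x := mul_pos hβ0 hbx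
    have h5 : β * ba l i₀ y ≤ β * Real.exp (D + 1) := mul_le_mul_of_nonneg_left h2 hβ0.le
    nlinarith

/-! ## The row -/

theorem dv_sc {σ f : V n → ℝ} (hσ : ContDiff ℝ ∞ σ) (hf : ContDiff ℝ ∞ f) (x : V n) :
    dv (sc σ) (cx f) x = ((SS σ f x : ℝ) : ℂ) := by
  have hfd : Differentiable ℝ f := hf.differentiable (by simp)
  have hσd : Differentiable ℝ σ := hσ.differentiable (by simp)
  have hfd2 : ∀ i, Differentiable ℝ (pd i f) := fun i =>
    (cd_pd hf i).differentiable (by simp)
  have h1 : ∀ i, (fun y => ∑ j, ((sc σ y i j : ℝ) : ℂ) * pd j (cx f) y)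
      = cx (fun y => σ y * pd i f y) := by
    intro i
    funext y
    rw [Finset.sum_eq_single i]
    · rw [pd_cx hfd]
      simp [sc, cx]
    · intro j _ hj
      simp [sc, Matrix.one_apply_ne (Ne.symm hj)]
    · intro h; exact absurd (Finset.mem_univ _) h
  unfold dv SS
  rw [Complex.ofReal_sum]
  refine Finset.sum_congr rfl fun i _ => ?_
  have h2 : Differentiable ℝ (fun y => σ y * pd i f y) := hσd.mul (hfd2 i)
  rw [h1 i, pd_cx h2 i x, pd_mul' hσd (hfd2 i) i x]

theorem gf_eq {φ f : V n → ℝ} (hφ : SmP φ) (hf : ContDiff ℝ ∞ f) (x : V n) :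
    gf φ f x = ((SS (fun y => φ y ^ 2) f x / φ x ^ 2 : ℝ) : ℂ) := by
  unfold gf
  rw [dv_sc (hφ.1.pow 2) hf]
  push_cast
  field_simp

theorem SS_neg (σ f : V n → ℝ) (x : V n) :
    SS σ (fun y => -f y) x = -SS σ f x := by
  have h1 : ∀ (F : V n → ℝ) (i : Fin n), pd i (fun y => -F y) = fun y => -pd i F y := by
    intro F i
    funext y
    unfold pd
    rw [fderiv_fun_neg]
    simp
  unfold SS
  rw [← Finset.sum_neg_distrib]
  refine Finset.sum_congr rfl fun i _ => ?_
  rw [h1 f i, h1 (pd i f) i]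
  ring

/-- (C_EN) -/
theorem en : RowENC := by
  intro n hn φ q₀ hba
  have hφ := hba.p
  set σ : V n → ℝ := fun y => φ y ^ 2 with hσ
  have hσc : ContDiff ℝ ∞ σ := hφ.1.pow 2
  have hpos : ∀ x, 0 < σ x := fun x => pow_pos (hφ.2 x) 2
  set i₀ : Fin n := ⟨0, hn⟩
  have hQ : IsCompact (QQ n) := isCompact_univ_pi fun _ => isCompact_Icc
  have hcont : Continuous fun x => pd i₀ σ x / σ x :=
    (cd_pd hσc i₀).continuous.div hσc.continuous fun x => (hpos x).ne'
  obtain ⟨D₀, hD₀⟩ := hQ.exists_bound_of_continuousOn hcont.continuousOn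
  have hD : ∀ x ∈ core n, |pd i₀ σ x| ≤ max D₀ 0 * σ x := by
    intro x hx
    have h1 := hD₀ x (mem_of_mem_nhds (core_nhds hx))
    rw [Real.norm_eq_abs, abs_div, abs_of_pos (hpos x), div_le_iff₀ (hpos x)] at h1
    exact h1.trans (mul_le_mul_of_nonneg_right (le_max_left _ _) (hpos x).le)
  refine ⟨Real.exp (max D₀ 0 + 1), Real.one_le_exp (by positivity), ?_⟩
  intro f hf h0 b hb hg x
  have key : ∀ x, |SS σ f x| ≤ b * σ x := by
    intro x
    have h1 := hg x
    rw [gf_eq hφ hf, Complex.norm_real, Real.norm_eq_abs, abs_div,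
      abs_of_pos (hpos x : 0 < φ x ^ 2), div_le_iff₀ (hpos x)] at h1
    exact h1
  have h1 := one_side i₀ σ hpos _ (le_max_right _ _) hD f hf h0 b hb
    (fun y _ => (abs_le.1 (key y)).1) x
  have h2 := one_side i₀ σ hpos _ (le_max_right _ _) hD (fun y => -f y) hf.neg
    (fun y hy => by simp [h0 y hy]) b hb
    (fun y _ => by rw [SS_neg σ f y]; linarith [(abs_le.1 (key y)).2]) x
  exact abs_le.2 ⟨by linarith, h1⟩

end Vale.Agent.P088.H394
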